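import Vale.Agent.P133.R2.H28.Base

/-!
P133 (helper652, row of helper28): two orthogonal full elements in every hereditary subalgebra
give `2 ^ k` of them.
-/

open scoped ComplexOrder

namespace Vale.Agent.P133.R2.H652

open Vale.Agent.P133 Vale.Agent.P133.H832 Vale.Agent.P133.R2.H28

universe u

section

variable {A : Type u} [NonUnitalCStarAlgebra A]

theorem her_trans {a b x : A} (hb : b ∈ closure (Set.range fun w => a * w * a))
    (hx : x ∈ closure (Set.range fun w => b * w * b)) :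
    x ∈ closure (Set.range fun w => a * w * a) := by
  refine closure_minimal ?_ isClosed_closure hx
  rintro _ ⟨w, rfl⟩
  have hc : Continuous fun y : A => y * w * y := by fun_prop
  refine map_mem_closure (f := fun y : A => y * w * y) hc hb ?_
  rintro _ ⟨v, rfl⟩
  exact ⟨v * a * w * a * v, by simp only [mul_assoc]⟩

theorem her_orth {b b' x x' : A} (h : b * b' = 0)
    (hx : x ∈ closure (Set.range fun w => b * w * b))
    (hx' : x' ∈ closure (Set.range fun w => b' * w * b')) : x * x' = 0 := by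
  have h1 : ∀ w : A, b * w * b * x' = 0 := by
    intro w
    have h2 : IsClosed {y : A | b * w * b * y = 0} := isClosed_eq (by fun_prop) (by fun_prop)
    refine closure_minimal ?_ h2 hx'
    rintro _ ⟨w', rfl⟩
    show b * w * b * (b' * w' * b') = 0
    calc _ = b * w * (b * b') * w' * b' := by simp only [mul_assoc]
      _ = 0 := by rw [h]; simp
  have h2 : IsClosed {y : A | y * x' = 0} := isClosed_eq (by fun_prop) (by fun_prop)
  refine closure_minimal ?_ h2 hx
  rintro _ ⟨w, rfl⟩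
  exact h1 w

end

section

variable {A : Type u} [NonUnitalCStarAlgebra A] [PartialOrder A] [StarOrderedRing A]

/-- every hereditary subalgebra contains two orthogonal elements which are full up to `δ` -/
def Two (A : Type u) [NonUnitalCStarAlgebra A] [PartialOrder A] [StarOrderedRing A] : Prop :=
  ∀ a : A, 0 ≤ a → ∀ δ : ℝ, 0 < δ → ∃ b₁ b₂ : A, 0 ≤ b₁ ∧ 0 ≤ b₂ ∧ b₁ * b₂ = 0 ∧
    b₁ ∈ closure (Set.range fun w => a * w * a) ∧
    b₂ ∈ closure (Set.range fun w => a * w * a) ∧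
    InId b₁ (H28.cut a δ) ∧ InId b₂ (H28.cut a δ)

omit [PartialOrder A] [StarOrderedRing A] in
theorem normMod_self (u : A) : NormMod {u} u 0 := fun _ _ _ hφ => by
  rw [hφ u rfl, norm_zero]

/-- a small cut of an element which generates the half cut of `a` generates the cut of `a` -/
theorem exists_cut {a b : A} (ha : 0 ≤ a) (hb : 0 ≤ b) {δ : ℝ} (hδ : 0 < δ)
    (h : InId b (H28.cut a (δ / 2))) : ∃ η : ℝ, 0 < η ∧ InId (H28.cut b η) (H28.cut a δ) := by
  obtain ⟨η, hη, h1⟩ := normMod_inId h (half_pos hδ)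
  refine ⟨η, hη, inId_cut (ε := δ) ha ?_ hδ le_rfl⟩
  have h2 : NormMod {H28.cut b η} b η := by
    have := normMod_of_cut hb hη (normMod_self (H28.cut b η))
    rwa [zero_add] at this
  have h3 := normMod_of_cut ha (half_pos hδ) (h1 _ h2)
  rwa [add_halves] at h3

theorem iter (h : Two A) (k : ℕ) : ∀ a : A, 0 ≤ a → ∀ δ : ℝ, 0 < δ →
    ∃ x : Fin (2 ^ k) → A, (∀ i, 0 ≤ x i) ∧ (∀ i j, i ≠ j → x i * x j = 0) ∧
      (∀ i, x i ∈ closure (Set.range fun w => a * w * a)) ∧ ∀ i, InId (x i) (H28.cut a δ) := by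
  induction k with
  | zero =>
    intro a ha δ hδ
    obtain ⟨b₁, b₂, h1, h2, h3, h4, h5, h6, h7⟩ := h a ha δ hδ
    have hs : ∀ i j : Fin (2 ^ 0), i = j := fun i j => Fin.ext (by
      have := i.2; have := j.2; omega)
    exact ⟨fun _ => b₁, fun _ => h1, fun i j hij => absurd (hs i j) hij, fun _ => h4, fun _ => h6⟩
  | succ k ih =>
    intro a ha δ hδ
    obtain ⟨b₁, b₂, h1, h2, h3, h4, h5, h6, h7⟩ := h a ha (δ / 2) (half_pos hδ)
    obtain ⟨η₁, hη₁, hc₁⟩ := exists_cut ha h1 hδ h6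
    obtain ⟨η₂, hη₂, hc₂⟩ := exists_cut ha h2 hδ h7
    obtain ⟨x₁, p1, o1, m1, i1⟩ := ih b₁ h1 η₁ hη₁
    obtain ⟨x₂, p2, o2, m2, i2⟩ := ih b₂ h2 η₂ hη₂
    have h3' : b₂ * b₁ = 0 := by
      have := congrArg star h3
      rwa [star_mul, star_zero, (IsSelfAdjoint.of_nonneg h1).star_eq,
        (IsSelfAdjoint.of_nonneg h2).star_eq] at this
    have hk : 2 ^ (k + 1) = 2 ^ k + 2 ^ k := by rw [pow_succ]; ring
    let e : Fin (2 ^ (k + 1)) ≃ Fin (2 ^ k) ⊕ Fin (2 ^ k) :=
      (finCongr hk).trans finSumFinEquiv.symm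
    have key : ∀ s : Fin (2 ^ k) ⊕ Fin (2 ^ k), 0 ≤ Sum.elim x₁ x₂ s ∧
        Sum.elim x₁ x₂ s ∈ closure (Set.range fun w => a * w * a) ∧
        InId (Sum.elim x₁ x₂ s) (H28.cut a δ) := by
      rintro (i | i)
      · exact ⟨p1 i, her_trans h4 (m1 i), (i1 i).trans hc₁⟩
      · exact ⟨p2 i, her_trans h5 (m2 i), (i2 i).trans hc₂⟩
    have keyo : ∀ s t : Fin (2 ^ k) ⊕ Fin (2 ^ k), s ≠ t →
        Sum.elim x₁ x₂ s * Sum.elim x₁ x₂ t = 0 := by
      rintro (i | i) (j | j) hij
      · exact o1 i j fun h => hij (by rw [h])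
      · exact her_orth h3 (m1 i) (m2 j)
      · exact her_orth h3' (m2 i) (m1 j)
      · exact o2 i j fun h => hij (by rw [h])
    exact ⟨fun i => Sum.elim x₁ x₂ (e i), fun i => (key _).1,
      fun i j hij => keyo _ _ fun h => hij (e.injective h), fun i => (key _).2.1,
      fun i => (key _).2.2⟩

end

end Vale.Agent.P133.R2.H652
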